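import Vale.Agent.P108.Main

/-!
# P108: the set of parameters of the standard map with positive exponent
-/

namespace Vale.Agent.Results.P108.Dichotomy

open Vale.Agent.P108 MeasureTheory Set Filter

/-- The integrated exponent `lam` is upper semicontinuous in the parameter; the parameters with
positive exponent form a countable union of closed sets; either they contain an interval, with a
uniform positive lower bound of the exponent, or zero exponent is generic; and they have positive
measure if and only if the exponent has a uniform positive lower bound on a closed set of positive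
measure. -/
theorem result :
    (∀ n : ℕ, Continuous (mean n)) ∧
    UpperSemicontinuous lam ∧
    (∀ c : EReal, IsClosed {k : ℝ | c ≤ lam k}) ∧
    ({k : ℝ | 0 < lam k} = ⋃ j : ℕ, {k : ℝ | ((1 / ((j : ℝ) + 1) : ℝ) : EReal) ≤ lam k}) ∧
    IsGδ {k : ℝ | lam k ≤ 0} ∧
    ((∃ a b : ℝ, a < b ∧ ∃ c : ℝ, 0 < c ∧ ∀ k ∈ Ioo a b, ((c : ℝ) : EReal) ≤ lam k) ∨
      {k : ℝ | lam k ≤ 0} ∈ residual ℝ) ∧
    (0 < volume {k : ℝ | 0 < lam k} ↔
      ∃ c : ℝ, 0 < c ∧ 0 < volume {k : ℝ | ((c : ℝ) : EReal) ≤ lam k}) :=
  ⟨continuous_mean, lam_usc, closed_ge, union_eq, gdelta, dich, measure_iff⟩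

end Vale.Agent.Results.P108.Dichotomy
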